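import Vale.Agent.P192.H663.CMDefs

/-!
# P192: coarsely piecewise monotone groups: the ultrapower modulo finite distance
-/

namespace Vale.Agent.P192.H327

open Filter CM

variable {K : Type} [LinearOrder K]

/-- the ultrafilter -/
noncomputable abbrev U : Ultrafilter ℕ := hyperfilter ℕ

/-- finite distance -/
def Fd (f f' : ℕ → K) : Prop := ∃ k : ℕ, ∀ᶠ i in (U : Filter ℕ), (Set.uIcc (f i) (f' i)).encard ≤ k

theorem Fd.refl (f : ℕ → K) : Fd f f :=
  ⟨1, Eventually.of_forall fun i => by simp⟩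

theorem Fd.symm {f f' : ℕ → K} (h : Fd f f') : Fd f' f := by
  obtain ⟨k, hk⟩ := h
  exact ⟨k, hk.mono fun i hi => by rw [Set.uIcc_comm]; exact hi⟩

theorem Fd.trans {f f' f'' : ℕ → K} (h : Fd f f') (h' : Fd f' f'') : Fd f f'' := by
  obtain ⟨k, hk⟩ := h
  obtain ⟨l, hl⟩ := h'
  refine ⟨k + l, ?_⟩
  filter_upwards [hk, hl] with i hi hi'
  calc (Set.uIcc (f i) (f'' i)).encard
      ≤ (Set.uIcc (f i) (f' i) ∪ Set.uIcc (f' i) (f'' i)).encard :=
        Set.encard_le_encard Set.uIcc_subset_uIcc_union_uIcc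
    _ ≤ (Set.uIcc (f i) (f' i)).encard + (Set.uIcc (f' i) (f'' i)).encard :=
        Set.encard_union_le _ _
    _ ≤ k + l := add_le_add hi hi'
    _ = ((k + l : ℕ) : ℕ∞) := by push_cast; rfl

theorem Fd.between {a b c : ℕ → K} (h : Fd a c)
    (hb : ∀ᶠ i in (U : Filter ℕ), b i ∈ Set.uIcc (a i) (c i)) : Fd a b := by
  obtain ⟨k, hk⟩ := h
  refine ⟨k, ?_⟩
  filter_upwards [hk, hb] with i hi hbi
  exact (Set.encard_le_encard (Set.uIcc_subset_uIcc_left hbi)).trans hi

theorem key1 {f f' g : ℕ → K} (h : Fd f f') (hlt : ∀ᶠ i in (U : Filter ℕ), f i < g i)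
    (hn : ¬ Fd f g) : ∀ᶠ i in (U : Filter ℕ), f' i < g i := by
  by_contra hcon
  rw [← Ultrafilter.eventually_not] at hcon
  apply hn
  apply h.between
  filter_upwards [hlt, hcon] with i h1 h2
  rw [not_lt] at h2
  exact Set.mem_uIcc.2 (Or.inl ⟨h1.le, h2⟩)

theorem key2 {f g g' : ℕ → K} (h : Fd g g') (hlt : ∀ᶠ i in (U : Filter ℕ), f i < g i)
    (hn : ¬ Fd f g) : ∀ᶠ i in (U : Filter ℕ), f i < g' i := by
  by_contra hcon
  rw [← Ultrafilter.eventually_not] at hcon
  apply hn
  apply Fd.symm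
  apply h.between
  filter_upwards [hlt, hcon] with i h1 h2
  rw [not_lt] at h2
  exact Set.mem_uIcc.2 (Or.inr ⟨h2, h1.le⟩)

variable (K) in
/-- nonstandard sequences -/
def NS : Type := {f : ℕ → K // ∀ x, ∀ᶠ i in (U : Filter ℕ), f i ≠ x}

variable (K) in
/-- finite distance -/
def st : Setoid (NS K) where
  r f f' := Fd f.1 f'.1
  iseqv := ⟨fun f => Fd.refl f.1, fun h => Fd.symm h, fun h h' => Fd.trans h h'⟩

variable (K) in
/-- the quotient -/
def Q : Type := Quotient (st K)

/-- the class of a sequence -/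
def mk (f : NS K) : Q K := Quotient.mk (st K) f

theorem ex_mk (q : Q K) : ∃ f, mk f = q := Quotient.exists_rep q

theorem mk_eq {f f' : NS K} : mk f = mk f' ↔ Fd f.1 f'.1 :=
  Quotient.eq (r := st K)

/-- a representative -/
noncomputable def out (q : Q K) : NS K := Quotient.out (s := st K) q

theorem mk_out (q : Q K) : mk (out q) = q := Quotient.out_eq (s := st K) q

/-- the germ of a representative -/
noncomputable def gm (q : Q K) : Germ (U : Filter ℕ) K := ((out q).1 : ℕ → K)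

theorem gm_inj : Function.Injective (gm (K := K)) := by
  intro q q' h
  have h1 : ∀ᶠ i in (U : Filter ℕ), (out q).1 i =
      (out q').1 i := Germ.coe_eq.1 h
  rw [← mk_out q, ← mk_out q']
  refine mk_eq.2 ⟨1, ?_⟩
  filter_upwards [h1] with i hi
  rw [hi]; simp

noncomputable instance : LinearOrder (Q K) := LinearOrder.lift' gm gm_inj

theorem lt_out {q q' : Q K} : q < q' ↔ ∀ᶠ i in (U : Filter ℕ),
    (out q).1 i < (out q').1 i := by
  change gm q < gm q' ↔ _
  exact Germ.coe_lt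

theorem out_fd (f : NS K) : Fd (out (mk f)).1 f.1 :=
  mk_eq.1 (mk_out (mk f))

theorem lt_iff {f f' : NS K} : mk f < mk f' ↔
    ¬ Fd f.1 f'.1 ∧ ∀ᶠ i in (U : Filter ℕ), f.1 i < f'.1 i := by
  rw [lt_out]
  have e1 := out_fd f
  have e2 := out_fd f'
  constructor
  · intro h
    have hn : ¬ Fd f.1 f'.1 := by
      intro h1
      have h2 : mk f < mk f' := lt_out.2 h
      exact absurd (mk_eq.2 h1) h2.ne
    refine ⟨hn, ?_⟩
    have hn' : ¬ Fd (out (mk f)).1
        (out (mk f')).1 := fun h1 =>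
      hn ((e1.symm.trans h1).trans e2)
    have h1 := key1 e1 h hn'
    have hn2 : ¬ Fd f.1 (out (mk f')).1 := fun h1 =>
      hn (h1.trans e2)
    exact key2 e2 h1 hn2
  · rintro ⟨hn, h⟩
    have h1 := key1 e1.symm h hn
    have hn2 : ¬ Fd (out (mk f)).1 f'.1 := fun h1 =>
      hn (e1.symm.trans h1)
    exact key2 e2.symm h1 hn2

theorem le_of {f f' : NS K} (h : ∀ᶠ i in (U : Filter ℕ), f.1 i < f'.1 i) :
    mk f ≤ mk f' := by
  by_cases hf : Fd f.1 f'.1
  · exact (mk_eq.2 hf).le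
  · exact (lt_iff.2 ⟨hf, h⟩).le

/-- the action on sequences -/
def actS (g : Equiv.Perm K) (f : NS K) : NS K :=
  ⟨fun i => g (f.1 i), fun x => (f.2 (g⁻¹ x)).mono fun i hi h => hi (by
    rw [← h]; simp)⟩

theorem actS_fd {g : Equiv.Perm K} (hg : BD g) {f f' : NS K} (h : Fd f.1 f'.1) :
    Fd (actS g f).1 (actS g f').1 := by
  obtain ⟨k, hk⟩ := h
  obtain ⟨m, hm⟩ := hg k
  refine ⟨m, ?_⟩
  have h1 : ∀ᶠ i in (U : Filter ℕ), ∀ x ∈ {x | ∃ y, (Set.uIcc x y).encard ≤ k ∧
      ¬ (Set.uIcc (g x) (g y)).encard ≤ m}, f.1 i ≠ x :=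
    (eventually_all_finite hm).2 fun x _ => f.2 x
  filter_upwards [h1, hk] with i hi hki
  by_contra hcon
  exact hi (f.1 i) ⟨f'.1 i, hki, hcon⟩ rfl

/-- the action -/
def hom (G : Subgroup (Equiv.Perm K)) (hG : ∀ g ∈ G, BD g) : G →* Equiv.Perm (Q K) :=
  letI : MulAction G (Q K) :=
    { smul := fun g => Quotient.map (sa := st K) (sb := st K) (actS g.1)
        (fun _ _ h => actS_fd (hG g.1 g.2) h)
      one_smul := by
        intro x
        obtain ⟨f, rfl⟩ := ex_mk x
        rfl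
      mul_smul := by
        intro g h x
        obtain ⟨f, rfl⟩ := ex_mk x
        rfl }
  MulAction.toPermHom G (Q K)

theorem hom_mk (G : Subgroup (Equiv.Perm K)) (hG : ∀ g ∈ G, BD g) (g : G) (f : NS K) :
    hom G hG g (mk f) = mk (actS g.1 f) := rfl

/-- the trace of a set -/
def star (C : Set K) : Set (Q K) :=
  {q | ∃ f : NS K, mk f = q ∧ ∀ᶠ i in (U : Filter ℕ), f.1 i ∈ C}

theorem ult : ULT_statement := by
  intro K _ G hP hB
  refine ⟨Q K, inferInstance, hom G hB, ?_, ?_⟩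
  · intro g
    obtain ⟨N, P, hfin, hcov, hpc⟩ := hP g.1 g.2
    refine ⟨star '' P, hfin.image _, ?_, ?_⟩
    · rw [Set.eq_univ_iff_forall]
      intro q
      obtain ⟨f, rfl⟩ := ex_mk q
      · have h1 : ⋃₀ P ∈ (U.map f.1) := by rw [hcov]; exact Filter.univ_mem
        rw [Ultrafilter.finite_sUnion_mem_iff hfin] at h1
        obtain ⟨C, hC, h2⟩ := h1
        exact ⟨star C, ⟨C, hC, rfl⟩, f, rfl, h2⟩
    · rintro _ ⟨C, hC, rfl⟩
      obtain ⟨hord, hmono⟩ := hpc C hC
      refine ⟨⟨?_⟩, ?_⟩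
      · rintro a ⟨fa, rfl, ha⟩ c ⟨fc, rfl, hc⟩ b ⟨h1, h2⟩
        obtain ⟨fb, rfl⟩ := ex_mk b
        · rcases h1.eq_or_lt with h1 | h1
          · exact ⟨fa, h1, ha⟩
          rcases h2.eq_or_lt with h2 | h2
          · exact ⟨fc, h2.symm, hc⟩
          refine ⟨fb, rfl, ?_⟩
          have h3 := (lt_iff.1 h1).2
          have h4 := (lt_iff.1 h2).2
          filter_upwards [ha, hc, h3, h4] with i e1 e2 e3 e4
          exact hord.out e1 e2 ⟨e3.le, e4.le⟩
      · rcases hmono with hm | hm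
        · left
          rintro a ⟨fa, rfl, ha⟩ b ⟨fb, rfl, hb⟩ hab
          rcases hab.eq_or_lt with h | h
          · rw [h]
          obtain ⟨h1, h2⟩ := lt_iff.1 h
          rw [hom_mk, hom_mk]
          apply le_of
          have h3 : ∀ᶠ i in (U : Filter ℕ), ¬ (Set.uIcc (fa.1 i) (fb.1 i)).encard ≤ N := by
            rw [Ultrafilter.eventually_not]
            exact fun h4 => h1 ⟨N, h4⟩
          filter_upwards [ha, hb, h2, h3] with i e1 e2 e3 e4
          rcases hm _ e1 _ e2 e3 with e5 | e5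
          · rw [Set.uIcc_of_le e3.le] at e4
            exact absurd e5 e4
          · exact e5
        · right
          rintro a ⟨fa, rfl, ha⟩ b ⟨fb, rfl, hb⟩ hab
          rcases hab.eq_or_lt with h | h
          · rw [h]
          obtain ⟨h1, h2⟩ := lt_iff.1 h
          rw [hom_mk, hom_mk]
          apply le_of
          have h3 : ∀ᶠ i in (U : Filter ℕ), ¬ (Set.uIcc (fa.1 i) (fb.1 i)).encard ≤ N := by
            rw [Ultrafilter.eventually_not]
            exact fun h4 => h1 ⟨N, h4⟩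
          filter_upwards [ha, hb, h2, h3] with i e1 e2 e3 e4
          rcases hm _ e1 _ e2 e3 with e5 | e5
          · rw [Set.uIcc_of_le e3.le] at e4
            exact absurd e5 e4
          · exact e5
  · intro g hg
    by_contra hW
    have hW' : ∀ D : ℕ, {x | ¬ (Set.uIcc x (g.1 x)).encard ≤ D}.Infinite := by
      intro D hfin
      exact hW ⟨D, hfin⟩
    obtain ⟨s, hs1, hs2⟩ := exists_seq_of_forall_finset_exists
      (fun p : ℕ × K => ¬ (Set.uIcc p.2 (g.1 p.2)).encard ≤ (p.1 : ℕ))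
      (fun p p' => p.1 < p'.1 ∧ p.2 ≠ p'.2) (by
        intro t _
        classical
        obtain ⟨x, hx, hx'⟩ := (hW' (t.sup Prod.fst + 1)).exists_notMem_finset (t.image Prod.snd)
        refine ⟨(t.sup Prod.fst + 1, x), hx, ?_⟩
        intro p hp
        refine ⟨Nat.lt_succ_of_le (Finset.le_sup (f := Prod.fst) hp), ?_⟩
        rintro rfl
        exact hx' (Finset.mem_image_of_mem _ hp))
    have hmon : StrictMono fun n => (s n).1 := fun m n h => (hs2 m n h).1
    have hinj : Function.Injective fun n => (s n).2 := by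
      intro m n h
      by_contra hne
      rcases lt_or_gt_of_ne hne with h1 | h1
      · exact (hs2 m n h1).2 h
      · exact (hs2 n m h1).2 h.symm
    let f : NS K := ⟨fun n => (s n).2, fun x => by
      apply hyperfilter_le_cofinite
      exact (hinj.tendsto_cofinite).eventually ((Set.finite_singleton x).compl_mem_cofinite)⟩
    have h1 : hom G hB g (mk f) = mk f := by rw [hg]; rfl
    rw [hom_mk, mk_eq] at h1
    obtain ⟨k, hk⟩ := h1.symm
    have h2 : ∀ᶠ n in (U : Filter ℕ), k ≤ n := by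
      apply hyperfilter_le_cofinite
      rw [Nat.cofinite_eq_atTop]
      exact eventually_ge_atTop k
    obtain ⟨n, e1, e2⟩ := (hk.and h2).exists
    have h3 := hs1 n
    apply h3
    calc (Set.uIcc (s n).2 (g.1 (s n).2)).encard ≤ k := e1
      _ ≤ ((s n).1 : ℕ) := by exact_mod_cast e2.trans (hmon.le_apply (x := n))

end Vale.Agent.P192.H327
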