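import Vale.Agent.P192.H327.WobA
import Vale.Agent.P192.H437.Wob

/-!
# P192: bounded displacement off finite sets in a linear order
-/

namespace Vale.Agent.P192.H327.WB

open Vale.Agent.P192 CM SimpleGraph

variable {K : Type} [LinearOrder K]

/-- the cell of a point -/
def cell (R : ℤ) (x : K) : Set K := {y | (Set.uIcc x y).Finite ∧ pos y / R = pos x / R}

theorem cell_trans {R : ℤ} {x y z : K} (h : y ∈ cell R x) (h' : z ∈ cell R y) : z ∈ cell R x :=
  ⟨fin_trans h.1 h'.1, h'.2.trans h.2⟩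

theorem self_cell (R : ℤ) (x : K) : x ∈ cell R x := ⟨by simp, rfl⟩

theorem cell_card {R : ℕ} (hR : 0 < R) (x : K) : (cell (R : ℤ) x).encard ≤ R := by
  have hR' : (0 : ℤ) < R := by exact_mod_cast hR
  have h1 : Set.MapsTo pos (cell (R : ℤ) x)
      (Finset.Ico ((R : ℤ) * (pos x / R)) (R * (pos x / R) + R) : Finset ℤ) := by
    intro y hy
    rw [Finset.coe_Ico, Set.mem_Ico, ← hy.2]
    have h2 := Int.mul_ediv_add_emod (pos y) R
    have h3 := Int.emod_nonneg (pos y) hR'.ne'
    have h4 := Int.emod_lt_of_pos (pos y) hR'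
    constructor <;> omega
  have h2 : Set.InjOn pos (cell (R : ℤ) x) := by
    intro y hy z hz h
    exact pos_inj (fin_trans (by rw [Set.uIcc_comm]; exact hy.1) hz.1) h
  refine (Set.encard_le_encard_of_injOn h1 h2).trans ?_
  rw [Set.encard_coe_eq_coe_finsetCard, Int.card_Ico]
  simp

theorem near_finite {E : Set K} (hE : E.Finite) (r : ℕ) : {z | Near E r z}.Finite := by
  have h1 : {z | Near E r z} ⊆ ⋃ e ∈ E, {z | (Set.uIcc z e).encard ≤ ((2 * r + 1 : ℕ) : ℕ∞)} := by
    rintro z ⟨e, he, h⟩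
    exact Set.mem_biUnion he h
  refine (hE.biUnion fun e _ => ?_).subset h1
  refine Set.Finite.of_injOn (f := pos) (t := Set.Icc (pos e - 2 * r) (pos e + 2 * r)) ?_ ?_
    (Set.finite_Icc _ _)
  · intro z hz
    have := pos_near (n := 2 * r) hz
    push_cast at this
    rw [Set.mem_Icc]
    omega
  · intro y hy z hz h
    have h1 : (Set.uIcc y e).Finite := Set.finite_of_encard_le_coe hy
    have h2 : (Set.uIcc z e).Finite := Set.finite_of_encard_le_coe hz
    rw [Set.uIcc_comm] at h2
    exact pos_inj (fin_trans h1 h2) h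

theorem same_block {p q : ℤ} {r : ℕ} (h1 : q - p ≤ ((2 * r : ℕ) : ℤ))
    (hc : Even (p / ((2 * r + 1 : ℕ) : ℤ)) ↔ Even (q / ((2 * r + 1 : ℕ) : ℤ))) :
    ¬ p / ((2 * r + 1 : ℕ) : ℤ) < q / ((2 * r + 1 : ℕ) : ℤ) := by
  intro h
  set R : ℤ := ((2 * r + 1 : ℕ) : ℤ) with hR
  have hR0 : 0 < R := by rw [hR]; positivity
  have hR1 : ((2 * r : ℕ) : ℤ) < R := by rw [hR]; push_cast; omega
  have h2 : p / R + 2 ≤ q / R := by
    by_contra h3
    have h4 : q / R = p / R + 1 := by omega
    rw [h4, Int.even_add_one] at hc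
    tauto
  have h3 := mul_le_mul_of_nonneg_left h2 hR0.le
  have h4 := Int.mul_ediv_add_emod p R
  have h5 := Int.emod_lt_of_pos p hR0
  have h6 := Int.mul_ediv_add_emod q R
  have h7 := Int.emod_nonneg q hR0.ne'
  have h8 : R * (p / R + 2) = R * (p / R) + 2 * R := by ring
  rw [h8] at h3
  generalize R * (p / R) = a at *
  generalize R * (q / R) = b at *
  omega

theorem wob : WOB_statement := by
  intro K _ G hG Γ _ hΓ htor f
  have := hΓ
  obtain ⟨S, hSf, hS⟩ := H630.exists_gens Γ
  choose! D hD using fun g (hg : g ∈ G) => hG g hg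
  -- exceptional set
  let B : Γ → Set K := fun s => {x | ¬ (Set.uIcc x ((f s : Equiv.Perm K) x)).encard ≤ D (f s)}
  have hB : ∀ s, (B s).Finite := fun s => hD (f s) (f s).2
  let E : Set K := ⋃ s ∈ S, (B s ∪ (f s : Equiv.Perm K) '' B s)
  have hE : E.Finite := hSf.biUnion fun s _ => (hB s).union ((hB s).image _)
  obtain ⟨c0, hc0⟩ := H630.exists_bound hSf fun s => D (f s)
  have hdisp : ∀ s ∈ S, ∀ x : K, (gr E).edist x ((f s : Equiv.Perm K) x) ≤ ((c0 + 1 : ℕ) : ℕ∞) := by
    intro s hs x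
    by_cases hx : x ∈ B s
    · by_cases hne : x = (f s : Equiv.Perm K) x
      · rw [← hne]; simp
      · have h1 : (gr E).Adj x ((f s : Equiv.Perm K) x) :=
          ⟨hne, Or.inr ⟨Set.mem_biUnion hs (Or.inl hx),
            Set.mem_biUnion hs (Or.inr ⟨x, hx, rfl⟩)⟩⟩
        rw [SimpleGraph.edist_eq_one_iff_adj.2 h1]
        exact_mod_cast (by omega : 1 ≤ c0 + 1)
    · have h1 : (Set.uIcc x ((f s : Equiv.Perm K) x)).encard ≤ ((D (f s) : ℕ) : ℕ∞) := by
        by_contra h; exact hx h
      refine edist_le E (c0 + 1) _ _ (h1.trans ?_)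
      have := hc0 s hs
      exact_mod_cast (by omega : D (f s) ≤ c0 + 1 + 1)
  obtain ⟨r, hr⟩ := H437.uniform_two.{0, 0} Γ htor S hS (c0 + 1)
  let R : ℕ := 2 * r + 1
  let NE : Set K := {z | Near E r z}
  have hNE : NE.Finite := near_finite hE r
  let T : Set K := ⋃ n ∈ NE, cell (R : ℤ) n
  have hT : T.Finite := hNE.biUnion fun n _ => Set.finite_of_encard_le_coe (cell_card (by omega) n)
  obtain ⟨N, -, h2, h3⟩ := hr (R + T.ncard)
  refine _root_.Vale.Agent.P192.range_finite_of_kernel f N h2 fun g hg => ?_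
  have h4 := h3 K (gr E) {x | Even (pos x / (R : ℤ))} ?_ (G.subtype.comp f) (fun s hs x => hdisp s hs x) g hg
  · exact Subtype.ext h4
  · intro x
    have h5 : {y | Relation.ReflTransGen (fun a b => (a ∈ {x : K | Even (pos x / (R : ℤ))} ↔
        b ∈ {x : K | Even (pos x / (R : ℤ))}) ∧ (gr E).edist a b ≤ r) x y} ⊆
        cell (R : ℤ) x ∪ T := by
      intro y hy
      have hy' : Relation.ReflTransGen (fun a b => (a ∈ {x : K | Even (pos x / (R : ℤ))} ↔
        b ∈ {x : K | Even (pos x / (R : ℤ))}) ∧ (gr E).edist a b ≤ r) x y := hy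
      induction hy' with
      | refl => exact Or.inl (self_cell _ x)
      | @tail b c hb hstep ih =>
        obtain ⟨hcol, hd⟩ := hstep
        rcases edist_cases E hd with h6 | ⟨-, h6⟩
        · have h7 := pos_near (n := 2 * r) h6
          have h8 : pos c / (R : ℤ) = pos b / (R : ℤ) := by
            have h9 := same_block (r := r) h7.1 hcol
            have h10 := same_block (r := r) h7.2 hcol.symm
            exact le_antisymm (not_lt.1 h9) (not_lt.1 h10)
          have h9 : c ∈ cell (R : ℤ) b := ⟨Set.finite_of_encard_le_coe h6, h8⟩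
          rcases ih hb with h10 | h10
          · exact Or.inl (cell_trans h10 h9)
          · obtain ⟨n, hn, h11⟩ := Set.mem_iUnion₂.1 h10
            exact Or.inr (Set.mem_biUnion hn (cell_trans h11 h9))
        · exact Or.inr (Set.mem_biUnion h6 (self_cell _ c))
    refine (Set.encard_le_encard h5).trans ((Set.encard_union_le _ _).trans ?_)
    push_cast
    refine add_le_add (cell_card (by omega) x) ?_
    rw [hT.cast_ncard_eq]

end Vale.Agent.P192.H327.WB
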