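import Vale.Agent.P192.H663.CMDefs

/-!
# P192: linear orders: positions and walks
-/

namespace Vale.Agent.P192.H327.WB

open Vale.Agent.P192 CM SimpleGraph

variable {K : Type} [LinearOrder K]

theorem fin_trans {x y z : K} (h : (Set.uIcc x y).Finite) (h' : (Set.uIcc y z).Finite) :
    (Set.uIcc x z).Finite :=
  (h.union h').subset Set.uIcc_subset_uIcc_union_uIcc

variable (K) in
/-- finite distance -/
def fs : Setoid K where
  r x y := (Set.uIcc x y).Finite
  iseqv := ⟨fun x => by simp, fun h => by rw [Set.uIcc_comm]; exact h,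
    fun h h' => fin_trans h h'⟩

/-- base point -/
noncomputable def base (x : K) : K := Quotient.out (s := fs K) (Quotient.mk (fs K) x)

theorem base_fin (x : K) : (Set.uIcc (base x) x).Finite := Quotient.mk_out (s := fs K) x

theorem base_eq {x y : K} (h : (Set.uIcc x y).Finite) : base x = base y := by
  have : Quotient.mk (fs K) x = Quotient.mk (fs K) y := Quotient.sound (s := fs K) h
  unfold base
  rw [this]

/-- position -/
noncomputable def pos (x : K) : ℤ :=
  ((Set.Ico (base x) x).ncard : ℤ) - ((Set.Ico x (base x)).ncard : ℤ)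

theorem ico_add {a c d : K} (h1 : a ≤ c) (h2 : c ≤ d) (hf : (Set.Icc a d).Finite) :
    (Set.Ico a c).ncard + (Set.Ico c d).ncard = (Set.Ico a d).ncard := by
  rw [← Set.ncard_union_eq _ (hf.subset _) (hf.subset _), Set.Ico_union_Ico_eq_Ico h1 h2]
  · rw [Set.disjoint_left]
    intro z hz hz'
    exact absurd hz.2 (not_lt.2 hz'.1)
  · intro z hz
    exact ⟨hz.1, hz.2.le.trans h2⟩
  · intro z hz
    exact ⟨h1.trans hz.1, hz.2.le⟩

theorem pos_sub {x y : K} (hxy : x ≤ y) (h : (Set.Icc x y).Finite) :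
    pos y - pos x = ((Set.Ico x y).ncard : ℤ) := by
  have hb : base x = base y := base_eq (by rwa [Set.uIcc_of_le hxy])
  have hx := base_fin x
  have hy := base_fin y
  unfold pos
  rw [hb] at hx ⊢
  generalize base y = b at hx hy ⊢
  rcases le_total b x with h1 | h1
  · rw [Set.uIcc_of_le (h1.trans hxy)] at hy
    have := ico_add h1 hxy hy
    rw [Set.Ico_eq_empty_of_le h1, Set.Ico_eq_empty_of_le (h1.trans hxy), Set.ncard_empty]
    omega
  · rcases le_total b y with h2 | h2
    · have := ico_add h1 h2 h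
      rw [Set.Ico_eq_empty_of_le h1, Set.Ico_eq_empty_of_le h2, Set.ncard_empty]
      omega
    · rw [Set.uIcc_of_ge h1] at hx
      have := ico_add hxy h2 hx
      rw [Set.Ico_eq_empty_of_le h1, Set.Ico_eq_empty_of_le h2, Set.ncard_empty]
      omega

theorem pos_lt {x y : K} (hxy : x < y) (h : (Set.Icc x y).Finite) : pos x < pos y := by
  have h1 := pos_sub hxy.le h
  have h2 : 0 < (Set.Ico x y).ncard :=
    (Set.ncard_pos (h.subset Set.Ico_subset_Icc_self)).2 ⟨x, Set.left_mem_Ico.2 hxy⟩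
  omega

theorem pos_inj {x y : K} (h : (Set.uIcc x y).Finite) (he : pos x = pos y) : x = y := by
  by_contra hne
  rcases lt_or_gt_of_ne hne with h1 | h1
  · rw [Set.uIcc_of_le h1.le] at h
    exact absurd he (pos_lt h1 h).ne
  · rw [Set.uIcc_of_ge h1.le] at h
    exact absurd he (pos_lt h1 h).ne'

theorem pos_near' {x y : K} {n : ℕ} (hxy : x ≤ y) (h : (Set.Icc x y).encard ≤ ((n + 1 : ℕ) : ℕ∞)) :
    0 ≤ pos y - pos x ∧ pos y - pos x ≤ n := by
  have hf : (Set.Icc x y).Finite := Set.finite_of_encard_le_coe h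
  have h1 := pos_sub hxy hf
  have h2 : (Set.Icc x y).ncard = (Set.Ico x y).ncard + 1 := by
    rw [← Set.Ico_insert_right hxy, Set.ncard_insert_of_notMem (by simp)
      (hf.subset Set.Ico_subset_Icc_self)]
  have h3 : (Set.Icc x y).ncard ≤ n + 1 := by
    rw [← hf.cast_ncard_eq] at h
    exact_mod_cast h
  omega

theorem pos_near {x y : K} {n : ℕ} (h : (Set.uIcc x y).encard ≤ ((n + 1 : ℕ) : ℕ∞)) :
    pos y - pos x ≤ n ∧ pos x - pos y ≤ n := by
  rcases le_total x y with h1 | h1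
  · rw [Set.uIcc_of_le h1] at h
    have := pos_near' h1 h
    omega
  · rw [Set.uIcc_of_ge h1] at h
    have := pos_near' h1 h
    omega

/-- the graph -/
def gr (E : Set K) : SimpleGraph K where
  Adj x y := x ≠ y ∧ ((Set.uIcc x y).encard ≤ 2 ∨ (x ∈ E ∧ y ∈ E))
  symm := ⟨fun x y h => ⟨h.1.symm, h.2.imp (fun h => by rwa [Set.uIcc_comm]) (fun h => ⟨h.2, h.1⟩)⟩⟩
  loopless := ⟨fun x h => h.1 rfl⟩

theorem edist_le' (E : Set K) (D : ℕ) : ∀ x y : K, x ≤ y →
    (Set.Icc x y).encard ≤ ((D + 1 : ℕ) : ℕ∞) → (gr E).edist x y ≤ D := by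
  induction D with
  | zero =>
    intro x y hxy h
    have h1 : x = y := by
      have h2 : (Set.Icc x y).encard ≤ 1 := by simpa using h
      exact Set.encard_le_one_iff.1 h2 x y (Set.left_mem_Icc.2 hxy) (Set.right_mem_Icc.2 hxy)
    rw [h1]; simp
  | succ D ih =>
    intro x y hxy h
    rcases hxy.eq_or_lt with h1 | h1
    · rw [h1]; simp
    have hf : (Set.Icc x y).Finite := Set.finite_of_encard_le_coe h
    have hf' : (Set.Ico x y).Finite := hf.subset Set.Ico_subset_Icc_self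
    obtain ⟨z, hz, hz'⟩ := hf'.exists_maximal ⟨x, Set.left_mem_Ico.2 h1⟩
    have h2 : (Set.Icc x z).encard ≤ ((D + 1 : ℕ) : ℕ∞) := by
      have h3 : (Set.Icc x z) ⊆ Set.Ico x y := fun w hw => ⟨hw.1, hw.2.trans_lt hz.2⟩
      refine (Set.encard_le_encard h3).trans ?_
      have h4 : (Set.Icc x y).encard = (Set.Ico x y).encard + 1 := by
        rw [← Set.Ico_insert_right hxy, Set.encard_insert_of_notMem (by simp)]
      rw [h4] at h
      have h5 : (Set.Ico x y).encard + 1 ≤ ((D + 1 : ℕ) : ℕ∞) + 1 := by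
        exact_mod_cast h
      exact (ENat.add_le_add_iff_right ENat.one_ne_top).1 h5
    have h3 := ih x z hz.1 h2
    have h4 : (gr E).Adj z y := by
      refine ⟨hz.2.ne, Or.inl ?_⟩
      have h5 : Set.uIcc z y ⊆ {z, y} := by
        rw [Set.uIcc_of_le hz.2.le]
        intro w hw
        rcases hw.2.eq_or_lt with h6 | h6
        · right; exact h6
        · left
          exact le_antisymm (hz' ⟨hz.1.trans hw.1, h6⟩ hw.1) hw.1
      refine (Set.encard_le_encard h5).trans ((Set.encard_insert_le _ _).trans ?_)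
      rw [Set.encard_singleton]; norm_num
    calc (gr E).edist x y ≤ (gr E).edist x z + (gr E).edist z y := SimpleGraph.edist_triangle
      _ ≤ (D : ℕ∞) + 1 := add_le_add h3 (by rw [SimpleGraph.edist_eq_one_iff_adj.2 h4])
      _ = ((D + 1 : ℕ) : ℕ∞) := by push_cast; rfl

theorem edist_le (E : Set K) (D : ℕ) (x y : K) (h : (Set.uIcc x y).encard ≤ ((D + 1 : ℕ) : ℕ∞)) :
    (gr E).edist x y ≤ D := by
  rcases le_total x y with h1 | h1
  · rw [Set.uIcc_of_le h1] at h
    exact edist_le' E D x y h1 h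
  · rw [Set.uIcc_of_ge h1] at h
    rw [SimpleGraph.edist_comm]
    exact edist_le' E D y x h1 h

/-- near `E` -/
def Near (E : Set K) (n : ℕ) (x : K) : Prop := ∃ e ∈ E, (Set.uIcc x e).encard ≤ ((2 * n + 1 : ℕ) : ℕ∞)

theorem Near.mono {E : Set K} {n m : ℕ} (h : n ≤ m) {x : K} (hx : Near E n x) : Near E m x := by
  obtain ⟨e, he, h1⟩ := hx
  refine ⟨e, he, h1.trans ?_⟩
  exact_mod_cast (by omega : 2 * n + 1 ≤ 2 * m + 1)

theorem step_card {x y z : K} {n : ℕ} (h : (Set.uIcc x y).encard ≤ 2)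
    (h' : (Set.uIcc y z).encard ≤ ((2 * n + 1 : ℕ) : ℕ∞)) :
    (Set.uIcc x z).encard ≤ ((2 * (n + 1) + 1 : ℕ) : ℕ∞) := by
  calc (Set.uIcc x z).encard
      ≤ (Set.uIcc x y ∪ Set.uIcc y z).encard :=
        Set.encard_le_encard Set.uIcc_subset_uIcc_union_uIcc
    _ ≤ (Set.uIcc x y).encard + (Set.uIcc y z).encard := Set.encard_union_le _ _
    _ ≤ 2 + ((2 * n + 1 : ℕ) : ℕ∞) := add_le_add h h'
    _ = ((2 * (n + 1) + 1 : ℕ) : ℕ∞) := by push_cast; ring

theorem walk_cases (E : Set K) {x y : K} (w : (gr E).Walk x y) :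
    (Set.uIcc x y).encard ≤ ((2 * w.length + 1 : ℕ) : ℕ∞) ∨
      (Near E w.length x ∧ Near E w.length y) := by
  induction w with
  | nil => left; simp
  | @cons a b c hab w ih =>
    rw [SimpleGraph.Walk.length_cons]
    rcases hab.2 with h1 | ⟨h1, h2⟩
    · rcases ih with h3 | ⟨⟨e, he, h3⟩, h4⟩
      · left; exact step_card h1 h3
      · right
        exact ⟨⟨e, he, step_card h1 h3⟩, h4.mono (by omega)⟩
    · right
      refine ⟨⟨a, h1, by simp⟩, ?_⟩
      rcases ih with h3 | ⟨-, h4⟩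
      · refine ⟨b, h2, ?_⟩
        rw [Set.uIcc_comm]
        exact h3.trans (by exact_mod_cast (by omega : 2 * w.length + 1 ≤ 2 * (w.length + 1) + 1))
      · exact h4.mono (by omega)

theorem edist_cases (E : Set K) {x y : K} {r : ℕ} (h : (gr E).edist x y ≤ r) :
    (Set.uIcc x y).encard ≤ ((2 * r + 1 : ℕ) : ℕ∞) ∨ (Near E r x ∧ Near E r y) := by
  have hne : (gr E).edist x y ≠ ⊤ := fun h1 => by rw [h1] at h; simp at h
  obtain ⟨w, hw⟩ := SimpleGraph.exists_walk_of_edist_ne_top hne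
  rw [← hw] at h
  have h1 : w.length ≤ r := by exact_mod_cast h
  rcases walk_cases E w with h2 | ⟨h2, h3⟩
  · left
    exact h2.trans (by exact_mod_cast (by omega : 2 * w.length + 1 ≤ 2 * r + 1))
  · exact Or.inr ⟨h2.mono h1, h3.mono h1⟩

end Vale.Agent.P192.H327.WB
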